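import Vale.Agent.P159.T1.H254.UWDefs

/-!
Objects of the direct route (plan 115 of P159): integer heights on a finite set `U` of faces of
`ℤ²`, zero outside `U`.

The face `(i, j)` is the unit square with lower left corner `(i, j)`. A bond is `(p, false)`
(horizontal, from `p` to `p + (1,0)`) or `(p, true)` (vertical, from `p` to `p + (0,1)`).
`rt e` and `lf e` are the faces to the right and to the left of the bond `e`.
-/

open Filter Topology

namespace Vale.Agent.P159.T1.D

open Vale.Agent.P159.H353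

/-- faces and sites -/
abbrev Z2 : Type := ℤ × ℤ

/-- bonds of `ℤ²` -/
abbrev Bnd : Type := Z2 × Bool

/-- first end point (a site) -/
def bs (e : Bnd) : Z2 := e.1

/-- second end point (a site) -/
def bt (e : Bnd) : Z2 := if e.2 then (e.1.1, e.1.2 + 1) else (e.1.1 + 1, e.1.2)

/-- the face to the right of the bond -/
def rt (e : Bnd) : Z2 := if e.2 then e.1 else (e.1.1, e.1.2 - 1)

/-- the face to the left of the bond -/
def lf (e : Bnd) : Z2 := if e.2 then (e.1.1 - 1, e.1.2) else e.1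

/-- the four sides of a face -/
def sides (f : Z2) : Finset Bnd :=
  {(f, false), ((f.1, f.2 + 1), false), (f, true), ((f.1 + 1, f.2), true)}

/-- the bonds which touch a face of `U` -/
def bd (U : Finset Z2) : Finset Bnd := U.biUnion sides

/-- integer heights which vanish outside `U` -/
abbrev Ht (U : Finset Z2) : Type := {h : Z2 → ℤ // ∀ f, f ∉ U → h f = 0}

/-- the gradient of the heights across the bond `e` (from right to left) -/
def dh (h : Z2 → ℤ) (e : Bnd) : ℤ := h (lf e) - h (rt e)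

/-- the gradient of a real function on the faces -/
def dr (φ : Z2 → ℝ) (e : Bnd) : ℝ := φ (lf e) - φ (rt e)

/-- gradient of a real function on the sites along the bond (a divergence free field for the
heights) -/
def gs (ψ : Z2 → ℝ) (e : Bnd) : ℝ := ψ (bt e) - ψ (bs e)

/-- weight of the heights `h`, shifted by the integer field `m` -/
noncomputable def wt (b : ℝ) (U : Finset Z2) (m : Bnd → ℤ) (h : Z2 → ℤ) : ℝ :=
  ∏ e ∈ bd U, wI b (dh h e + m e)

/-- the pairing of the field `B` with the gradient -/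
noncomputable def pr (U : Finset Z2) (B : Bnd → ℝ) (m : Bnd → ℤ) (h : Z2 → ℤ) : ℝ :=
  ∑ e ∈ bd U, B e * ((dh h e + m e : ℤ) : ℝ)

/-- the pairing of the charges `ρ` with the heights -/
noncomputable def ch (U : Finset Z2) (ρ : Z2 → ℝ) (h : Z2 → ℤ) : ℝ := ∑ f ∈ U, ρ f * (h f : ℝ)

/-- partition function of the heights -/
noncomputable def Z (b : ℝ) (U : Finset Z2) : ℝ := ∑' h : Ht U, wt b U 0 h.1

/-- partition function with real charges `ρ` -/
noncomputable def Zρ (b : ℝ) (U : Finset Z2) (ρ : Z2 → ℝ) : ℝ :=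
  ∑' h : Ht U, wt b U 0 h.1 * Real.exp (ch U ρ h.1)

/-- partition function in the sector `m` with the field `B` -/
noncomputable def ZB (b : ℝ) (U : Finset Z2) (m : Bnd → ℤ) (B : Bnd → ℝ) : ℝ :=
  ∑' h : Ht U, wt b U m h.1 * Real.exp (pr U B m h.1)

/-- mean in the sector `0` -/
noncomputable def E (b : ℝ) (U : Finset Z2) (F : (Z2 → ℤ) → ℝ) : ℝ :=
  (∑' h : Ht U, wt b U 0 h.1 * F h.1) / Z b U

/-- variance of `B.∇h` (the mean is `0`) -/
noncomputable def Vr (b : ℝ) (U : Finset Z2) (B : Bnd → ℝ) : ℝ :=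
  E b U fun h => pr U B 0 h ^ 2

/-- the field `B` has divergence `-ρ` on `U` : `B.∇h = ρ.h` for all heights which vanish
outside `U` -/
def IsDiv (U : Finset Z2) (B : Bnd → ℝ) (ρ : Z2 → ℝ) : Prop :=
  ∀ f ∈ U, B (f, false) - B ((f.1, f.2 + 1), false) + B ((f.1 + 1, f.2), true) - B (f, true) = ρ f

/-- translation of a bond -/
def sh (u : Z2) (e : Bnd) : Bnd := (e.1 + u, e.2)

/-- the oscillation of `B` at distance `l` -/
noncomputable def osc (l : ℕ) (S : Finset Bnd) (B : Bnd → ℝ) : ℝ :=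
  ∑ e ∈ S, ∑ u ∈ Finset.Icc (-(l : ℤ), -(l : ℤ)) ((l : ℤ), (l : ℤ)), (B (sh u e) - B e) ^ 2

/-! ### the slit box -/

/-- the slit box: faces in `[-R, r+R) × [-R, R)` without the two slits `j = -1`, `i < 0` and
`i ≥ r`; the tips are the sites `(0,0)` and `(r,0)` -/
noncomputable def SB (R r : ℕ) : Finset Z2 :=
  (Finset.Ico (-(R : ℤ)) (r + R) ×ˢ Finset.Ico (-(R : ℤ)) R).filter
    fun f => ¬ (f.2 = -1 ∧ (f.1 < 0 ∨ (r : ℤ) ≤ f.1))

/-- the sector `(k|0)`: height `k` on the upper part of the outer face. The bond `e` of the slit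
box with one side outside belongs to the upper part iff its lower end point has `j ≥ 0` -/
def sec (U : Finset Z2) (k : ℤ) (e : Bnd) : ℤ :=
  if 0 ≤ e.1.2 then (if lf e ∈ U then 0 else k) - (if rt e ∈ U then 0 else k) else 0

/-- partition function of the slit box in the sector `(k|0)` with charges `ρ` -/
noncomputable def Zs (b : ℝ) (U : Finset Z2) (k : ℤ) (ρ : Z2 → ℝ) : ℝ :=
  ∑' h : Ht U, wt b U (sec U k) h.1 * Real.exp (ch U ρ h.1)

/-! ### paths of faces -/

/-- neighbouring faces of `U`, both in `X` -/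
def adj (U : Finset Z2) (X : Set Z2) (f g : Z2) : Prop :=
  (f ∈ U ∧ f ∈ X) ∧ (g ∈ U ∧ g ∈ X) ∧ ∃ e, (rt e = f ∧ lf e = g) ∨ (rt e = g ∧ lf e = f)

/-- `A` is joined to `B` inside `X` -/
def Jn (U : Finset Z2) (X A B : Set Z2) : Prop :=
  ∃ a ∈ A, ∃ b ∈ B, (a ∈ U ∧ a ∈ X) ∧ Relation.ReflTransGen (adj U X) a b

/-- faces of `U` at the upper part of the boundary -/
def upp (U : Finset Z2) : Set Z2 := {f | ∃ e ∈ sides f, 0 ≤ e.1.2 ∧ (lf e ∉ U ∨ rt e ∉ U)}

/-- faces of `U` at the lower part of the boundary -/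
def low (U : Finset Z2) : Set Z2 := {f | ∃ e ∈ sides f, e.1.2 < 0 ∧ (lf e ∉ U ∨ rt e ∉ U)}

/-- `N` contains an arm from the upper boundary to `Q` which avoids the rest of `T` -/
def Arm (U : Finset Z2) (T Q N : Set Z2) : Prop := Jn U (N \ (T \ Q)) (upp U) Q

/-! ### the strips below the lower lips -/

/-- the cone below the lower lip of the left slit -/
def cone (q : ℕ) : Set Z2 := {f | f.2 ≤ -2 ∧ (q : ℤ) * (-1 - f.2) ≤ -f.1}

/-- the part of the cone in the columns `a ≤ -i < a'` -/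
def strip (q : ℕ) (a a' : ℕ) : Set Z2 := {f ∈ cone q | (a : ℤ) ≤ -f.1 ∧ -f.1 < a'}

/-- reflection which exchanges the two tips -/
def mir (r : ℕ) (f : Z2) : Z2 := ((r : ℤ) - 1 - f.1, f.2)

/-- faces near the left tip -/
def tip (n : ℕ) : Set Z2 := {f | -(n : ℤ) ≤ f.1 ∧ f.1 < n ∧ -(n : ℤ) ≤ f.2 ∧ f.2 < n}

/-! ### the charges -/

/-- logarithm of the distance of a site from the left tip -/
noncomputable def tau (P : Z2) : ℝ := Real.log (Real.sqrt ((P.1 : ℝ) ^ 2 + (P.2 : ℝ) ^ 2))

/-- opening angle of the cone -/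
noncomputable def ang (q : ℕ) : ℝ := Real.arctan (1 / (q : ℝ))

open Classical in
/-- the coefficient: `c₂` on the bonds inside the cone and between the cone and the lower lip,
`c₁` elsewhere -/
noncomputable def cf (Y V : ℝ) (q : ℕ) (e : Bnd) : ℝ :=
  if (rt e ∈ cone q ∧ lf e ∈ cone q) ∨ (rt e ∈ cone q ∧ e.2 = false ∧ e.1.2 = -1) then
    V / (Y * ang q) else -(V / (Y * (2 * Real.pi - ang q)))

/-- the field with stream function `Γ (tau P)` -/
noncomputable def Bf (Y V : ℝ) (q : ℕ) (Γ : ℝ → ℝ) (e : Bnd) : ℝ :=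
  cf Y V q e * gs (fun P => Γ (tau P)) e

open Classical in
/-- its charges (they sit in the last layer of the cone) -/
noncomputable def ro (Y V : ℝ) (q : ℕ) (Γ : ℝ → ℝ) (f : Z2) : ℝ :=
  if f ∈ cone q then Bf Y V q Γ (f, false) - Bf Y V q Γ ((f.1, f.2 + 1), false) +
    Bf Y V q Γ ((f.1 + 1, f.2), true) - Bf Y V q Γ (f, true) else 0

/-- the profile with slope `1` between the radii `a` and `A` -/
noncomputable def clp (a A : ℝ) (τ : ℝ) : ℝ := max (Real.log a) (min τ (Real.log A))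

/-- smooth bump of charge: total mass about `κ`, centre `(-x r, -y r)`, radius `s r` -/
noncomputable def bump (r : ℕ) (κ x y s : ℝ) (f : Z2) : ℝ :=
  κ / (r : ℝ) ^ 2 * max 0 (s ^ 2 - ((f.1 : ℝ) / r + x) ^ 2 - ((f.2 : ℝ) / r + y) ^ 2) ^ 4

/-- all charges of the slit box -/
noncomputable def rho (Y V : ℝ) (q n0 r : ℕ) (κ x y s : ℝ) (f : Z2) : ℝ :=
  ro Y V q (clp n0 ((r : ℝ) / 4)) f + ro Y V q (clp n0 ((r : ℝ) / 4)) (mir r f) +
    bump r κ x y s f + bump r κ x y s (mir r f)

/-- energy per unit of `tau` (times `Y`) of the charges of one tip -/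
noncomputable def En (V : ℝ) (q : ℕ) : ℝ := V ^ 2 / 2 * (1 / ang q + 1 / (2 * Real.pi - ang q))

end Vale.Agent.P159.T1.D
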