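import Vale.Agent.P159.T1.D.Defs
import Vale.Agent.P159.Helicity

/-!
The rows of the direct route (plan 115 of P159).
-/

open Filter Topology MeasureTheory

namespace Vale.Agent.P159.T1.D

open Vale.Agent.P159.H353

/-! ### finite statements -/

/-- D.TOP (duality): the correlation is at least the ratio of the height sums of the slit box -/
def StmtTop : Prop :=
  ∀ (b : ℝ) (R r : ℕ), 0 < b → 2 ≤ R → 1 ≤ r →
    Zs b (SB R r) 1 0 ≤ corrInf b ((r : ℤ), 0) * Z b (SB R r)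

open Classical in
/-- D.MAIN: exploration of the `{h ≤ 0}` cluster of the upper lip, FKG, arms.
`Bad i` are upward closed properties of the set of faces with `h ≤ 0`. -/
def StmtMain : Prop :=
  ∀ (b : ℝ) (R r : ℕ) (ρ : Z2 → ℝ) (ι : Type) (I : Finset ι) (Bad : ι → Set Z2 → Prop)
    (A B : ι → Set Z2) (Q : ι → Finset Z2) (ρA ρB : ι → Z2 → ℝ) (F : Finset Z2),
    0 < b → 2 ≤ R → 1 ≤ r → (∀ f, 0 ≤ ρ f) → F ⊆ SB R r →
    (∀ i ∈ I, ∀ f, 0 ≤ ρA i f ∧ 0 ≤ ρB i f ∧ ρA i f + ρB i f ≤ ρ f) →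
    (∀ i ∈ I, ∀ f, f ∉ A i → ρA i f = 0) → (∀ i ∈ I, ∀ f, f ∉ B i → ρB i f = 0) →
    (∀ i ∈ I, ∀ N N' : Set Z2, N ⊆ N' → Bad i N → Bad i N') →
    (∀ i ∈ I, ∀ N : Set Z2, Bad i N → ¬ Jn (SB R r) (N ∪ Q i)ᶜ (A i) (B i)) →
    (∀ N : Set Z2, Jn (SB R r) N (upp (SB R r)) (low (SB R r)) →
      (∃ i ∈ I, Bad i N) ∨ ∃ f ∈ F, f ∈ N) →
    Z b (SB R r) * Zρ b (SB R r) ρ *
        (∏ i ∈ I, max 0 (1 - Zρ b (SB R r \ Q i) (fun f => ρA i f - ρB i f) /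
          Zρ b (SB R r \ Q i) (fun f => ρA i f + ρB i f))) *
        (∏ f ∈ F, E b (SB R r) fun h => if 1 ≤ h f then 1 else 0) ≤
      Zs b (SB R r) 1 0 * Zs b (SB R r) 1 ρ

/-- D.COVER (planarity): a path of faces from the upper to the lower part of the boundary has an
arm to a cell of a strip, or meets a face near a tip, or separates the two strips.
`a 0 < a 1 < … < a K` are the columns which bound the cells. -/
def StmtCover : Prop :=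
  ∀ (R r q n K : ℕ) (a : ℕ → ℕ), 2 ≤ R → 1 ≤ q → q < n → StrictMono a → a 0 ≤ n →
    a K ≤ R → 2 * n ≤ r → n ≤ R → ∀ N : Set Z2,
    Jn (SB R r) N (upp (SB R r)) (low (SB R r)) →
    (∃ k < K, Arm (SB R r) (strip q 1 (a K) ∪ mir r ⁻¹' strip q 1 (a K) ∪ tip n ∪
        mir r ⁻¹' tip n) (strip q (a k) (a (k + 1))) N) ∨
      (∃ k < K, Arm (SB R r) (strip q 1 (a K) ∪ mir r ⁻¹' strip q 1 (a K) ∪ tip n ∪
        mir r ⁻¹' tip n) (mir r ⁻¹' strip q (a k) (a (k + 1))) N) ∨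
      (∃ f ∈ SB R r, (f ∈ tip n ∨ mir r f ∈ tip n) ∧ f ∈ N) ∨
      ¬ Jn (SB R r) Nᶜ (strip q 1 (a K)) (mir r ⁻¹' strip q 1 (a K))

/-- D.SEP (planarity): an arm to a cell of the strip and the cell separate the inner from the outer
part of the strip (left tip; the right tip follows by reflection) -/
def StmtSep : Prop :=
  ∀ (R r q n a a' a'' : ℕ), 2 ≤ R → 1 ≤ q → 1 ≤ n → 1 ≤ a → a < a' → a' ≤ a'' → a'' ≤ R →
    2 * n ≤ r → n ≤ R → n ≤ a → ∀ N : Set Z2,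
    Arm (SB R r) (strip q 1 a'' ∪ mir r ⁻¹' strip q 1 a'' ∪ tip n ∪ mir r ⁻¹' tip n)
      (strip q a a') N →
    ¬ Jn (SB R r) (N ∪ strip q a a')ᶜ (strip q 1 a) (strip q a' a'')

/-- D.SEPM (planarity): an arm to a cell of the left strip and the cell separate the inner part of
the left strip from the right strip -/
def StmtSepM : Prop :=
  ∀ (R r q n a a' a'' : ℕ), 2 ≤ R → 1 ≤ q → q < n → 1 ≤ a → a < a' → a' ≤ a'' → a'' ≤ R →
    2 * n ≤ r → n ≤ R → n ≤ a → ∀ N : Set Z2,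
    Arm (SB R r) (strip q 1 a'' ∪ mir r ⁻¹' strip q 1 a'' ∪ tip n ∪ mir r ⁻¹' tip n)
      (strip q a a') N →
    ¬ Jn (SB R r) (N ∪ strip q a a')ᶜ (strip q 1 a) (mir r ⁻¹' strip q 1 a'')

/-- D.TIP: the height at a face is positive with probability bounded from below -/
def StmtTip : Prop :=
  ∀ b : ℝ, 0 < b → ∃ p : ℝ, 0 < p ∧ ∀ (U : Finset Z2) (f : Z2), f ∈ U →
    p ≤ E b U fun h => if 1 ≤ h f then 1 else 0

/-! ### the two analytic inputs -/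

/-- D.U: the upper bound, uniform in the domain, the sector and the field -/
def StmtU : Prop :=
  ∀ (b ε : ℝ), 0 < b → 0 < ε → ∃ (l : ℕ) (η C : ℝ), 0 < η ∧ 0 < C ∧
    ∀ (U : Finset Z2) (S : Finset Bnd) (m : Bnd → ℤ) (B : Bnd → ℝ),
      (∀ e, e ∉ S → B e = 0) → (∀ e, |B e| ≤ η) →
      ZB b U m B ≤ Real.exp ((helicity b + ε) / 2 * ∑ e ∈ S, B e ^ 2 + C * osc l S B) * Z b U

/-- D.UV: the same for the variance (no smallness) -/
def StmtUV : Prop :=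
  ∀ (b ε : ℝ), 0 < b → 0 < ε → ∃ (l : ℕ) (C : ℝ), 0 < C ∧
    ∀ (U : Finset Z2) (S : Finset Bnd) (B : Bnd → ℝ), (∀ e, e ∉ S → B e = 0) →
      Vr b U B ≤ (helicity b + ε) * ∑ e ∈ S, B e ^ 2 + C * osc l S B

/-- the Dirichlet energy of `φ` -/
noncomputable def Dir (φ : ℝ × ℝ → ℝ) : ℝ :=
  ∫ z, (fderiv ℝ φ z (1, 0)) ^ 2 + (fderiv ℝ φ z (0, 1)) ^ 2

/-- the eight isometries of `ℤ²` which fix the corner, followed by a translation; acting on the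
faces of the quarter plane -/
def iso (u : Z2) (x y z : Bool) (f : Z2) : Z2 :=
  let g : Z2 := if z then (f.2, f.1) else f
  (u.1 + (if x then g.1 else -1 - g.1), u.2 + (if y then g.2 else -1 - g.2))

/-- D.V: the variance in a domain which contains a quarter plane box is at least that of the
Gaussian free field, up to a power of the distance of the other two sides -/
def StmtV : Prop :=
  ∀ b : ℝ, bCrit ≤ b → ∃ (C c : ℝ), 0 < C ∧ 0 < c ∧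
    ∀ φ : ℝ × ℝ → ℝ, ContDiff ℝ 2 φ → HasCompactSupport φ →
      (∀ z ∈ tsupport φ, 0 < z.1 ∧ 0 < z.2) →
      ∀ (a R : ℕ), 1 ≤ a → a ≤ R → (∀ z ∈ tsupport φ, z.1 ≤ a ∧ z.2 ≤ a) → ∀ ε : ℝ, 0 < ε →
      ∃ n0 : ℕ, ∀ n ≥ n0, ∀ (u : Z2) (x y z : Bool) (U : Finset Z2),
        (∀ f : Z2, 0 ≤ f.1 → f.1 < n * R → 0 ≤ f.2 → f.2 < n * R → iso u x y z f ∈ U) →
        ∀ g : Z2 → ℝ, (∀ f : Z2, 0 ≤ f.1 → 0 ≤ f.2 → g (iso u x y z f) =
          φ ((f.1 : ℝ) / n, (f.2 : ℝ) / n)) →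
        (∀ f : Z2, (∀ f', 0 ≤ f'.1 → 0 ≤ f'.2 → f ≠ iso u x y z f') → g f = 0) →
        helicity b * Dir φ * (1 - C * ((a : ℝ) / R) ^ c) - ε ≤ Vr b U (dr g)

/-! ### explicit potentials -/

/-- D.POS: the charges are nonnegative and additive -/
def StmtPos : Prop :=
  ∀ (Y V : ℝ) (q : ℕ) (Γ : ℝ → ℝ), 0 < Y → 0 < V → 1 ≤ q → Monotone Γ →
    ∀ f, 0 ≤ ro Y V q Γ f

/-- D.UP: upper bound in the sector `(1|0)` -/
def StmtUp : Prop :=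
  ∀ (b V : ℝ) (q : ℕ) (κ x y s ε : ℝ), bCrit ≤ b → 0 < V → 1 ≤ q → 0 < ε → 0 < κ → 0 < s →
    s < y → s + x < 1 / 4 → (q : ℝ) * (y + s) < x - s →
    ∃ n1 : ℕ, ∀ n0 ≥ n1, ∃ C : ℝ, ∀ (A r : ℕ), 1 ≤ A → n1 ≤ r →
      Zs b (SB (A * r) r) 1 (rho (helicity b) V q n0 r κ x y s) ≤
        Real.exp (2 * Real.log r / helicity b *
          (En V q + V / (2 * Real.pi - ang q) - 1 / (4 * Real.pi)) + ε * Real.log r + C) *
          Z b (SB (A * r) r)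

/-- D.LOW: lower bound in the sector `(0|0)` -/
def StmtLow : Prop :=
  ∀ (b V : ℝ) (q : ℕ) (κ x y s ε : ℝ), bCrit ≤ b → 0 < V → 1 ≤ q → 0 < ε → 0 < κ → 0 < s →
    s < y → s + x < 1 / 4 → (q : ℝ) * (y + s) < x - s →
    ∃ n1 : ℕ, ∀ n0 ≥ n1, ∃ C : ℝ, ∀ (A r : ℕ), 1 ≤ A → n1 ≤ r →
      Real.exp (2 * Real.log r / helicity b * En V q - ε * Real.log r - C) * Z b (SB (A * r) r) ≤
        Zρ b (SB (A * r) r) (rho (helicity b) V q n0 r κ x y s)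

open Classical in
/-- D.ARM: the ratio for one cell -/
def StmtArm : Prop :=
  ∀ (b V : ℝ), bCrit ≤ b → 0 < V → ∃ C : ℝ, ∃ q0 : ℕ, ∀ q ≥ q0, ∃ (n1 A0 : ℕ) (c : ℝ), 0 < c ∧
    c ≤ 1 / 12 ∧ ∀ n0 ≥ n1, ∀ (A r a : ℕ), A0 ≤ A → 3 * n0 ≤ a → (a : ℝ) ≤ c * r →
      ∃ ρA ρB : Z2 → ℝ, (∀ f, 0 ≤ ρA f ∧ 0 ≤ ρB f ∧
          ρA f + ρB f ≤ ro (helicity b) V q (clp n0 ((r : ℝ) / 4)) f) ∧
        (∀ f, f ∉ strip q 1 a → ρA f = 0) ∧
        (∀ f, f ∉ strip q (a + a / q) (2 * a) → ρB f = 0) ∧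
        ∀ Q : Finset Z2, (∀ f, f ∈ Q ↔ f ∈ strip q a (a + a / q)) →
        Zρ b (SB (A * r) r \ Q) (fun f => ρA f - ρB f) ≤
          C * (q : ℝ) ^ (-(2 * V ^ 2 / (Real.pi * helicity b))) *
            Zρ b (SB (A * r) r \ Q) (fun f => ρA f + ρB f)

/-- D.MID: the two bumps are joined with positive probability (ratio below `1`), also if heights
far to the left are pinned -/
def StmtMid : Prop :=
  ∀ (b κ x y s x' : ℝ), bCrit ≤ b → 0 < κ → 0 < s → s < y → s < x → x + s < x' →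
    ∃ (θ : ℝ) (n1 A0 : ℕ), θ < 1 ∧ ∀ (A r : ℕ), A0 ≤ A → n1 ≤ r →
      ∀ Q : Finset Z2, (∀ f ∈ Q, x' * (r : ℝ) ≤ -(f.1 : ℝ)) →
      Zρ b (SB (A * r) r \ Q) (fun f => bump r κ x y s f - bump r κ x y s (mir r f)) ≤
        θ * Zρ b (SB (A * r) r \ Q) (fun f => bump r κ x y s f + bump r κ x y s (mir r f))

/-- **the result on the axis** -/
def StmtAxis : Prop :=
  ∀ (b ε : ℝ), bCrit ≤ b → 0 < ε → ∃ c : ℝ, 0 < c ∧ ∀ r : ℕ, 1 ≤ r →
    c * (r : ℝ) ^ (-(1 / 4 + ε)) ≤ corrInf b ((r : ℤ), 0)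

end Vale.Agent.P159.T1.D
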